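/-
helper73 -- S0355 squad (track D), package A (Body): topology of `K`, `KP`, facets and sweeps.
Same names/signatures as `Crest.Agent.Helper28.S0355.Blueprint`.  Imports helper28's Defs only.
-/
import Crest.Agent.Helper28.S0355.Defs

set_option autoImplicit false
open MeasureTheory
open scoped ENNReal Pointwise

namespace Crest.Agent.Helper73.S0355

open Crest.Agent.Helper28.S0355

theorem continuous_s1 : Continuous s1 := by
  unfold s1; exact continuous_finsetSum _ (fun i _ => continuous_apply i)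

theorem continuous_s2 : Continuous s2 := by
  unfold s2; exact continuous_finsetSum _ (fun i _ => continuous_apply i)

theorem continuous_lc (k : Fin 20 ⊕ Bool) : Continuous (lc k) := by
  rcases k with j | b
  · exact (continuous_apply j).neg
  · cases b
    · exact continuous_s1
    · exact continuous_s2

theorem isClosed_KP : IsClosed KP := by
  have h : KP = (⋂ i : Fin 20, {x : P20 | 0 ≤ x i}) ∩ ({x : P20 | s1 x ≤ 1} ∩ {x : P20 | s2 x ≤ 1}) := by
    ext x; simp [KP]
  rw [h]
  refine IsClosed.inter (isClosed_iInter (fun i => isClosed_le continuous_const (continuous_apply i)))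
    (IsClosed.inter (isClosed_le continuous_s1 continuous_const)
      (isClosed_le continuous_s2 continuous_const))

theorem KP_subset_Icc : KP ⊆ Set.Icc (0 : P20) 1 := by
  intro x hx
  obtain ⟨h0, h1, h2⟩ := hx
  refine ⟨fun i => h0 i, fun i => ?_⟩
  by_cases hi : i ∈ B1
  · calc x i ≤ ∑ j ∈ B1, x j := Finset.single_le_sum (fun j _ => h0 j) hi
      _ ≤ 1 := h1
  · have hi2 : i ∈ B2 := by unfold B2; exact Finset.mem_compl.mpr hi
    calc x i ≤ ∑ j ∈ B2, x j := Finset.single_le_sum (fun j _ => h0 j) hi2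
      _ ≤ 1 := h2

theorem isCompact_KP : IsCompact KP :=
  IsCompact.of_isClosed_subset isCompact_Icc isClosed_KP KP_subset_Icc

theorem isCompact_facet (k : Fin 20 ⊕ Bool) : IsCompact (facet k) := by
  have h : facet k = KP ∩ {x : P20 | lc k x = bc k} := by
    ext x; simp [facet]
  rw [h]
  exact isCompact_KP.inter_right (isClosed_eq (continuous_lc k) continuous_const)

/-- `sweep C u` is the image of `C × [0,1]` under `(z, t) ↦ z + t • u`. -/
theorem isCompact_sweep {C : Set P20} (hC : IsCompact C) (u : P20) : IsCompact (sweep C u) := by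
  have h : sweep C u = (fun p : P20 × ℝ => p.1 + p.2 • u) '' (C ×ˢ Set.Icc (0 : ℝ) 1) := by
    ext x
    constructor
    · rintro ⟨t, ht, hx⟩
      exact ⟨(x - t • u, t), ⟨hx, ht⟩, by simp⟩
    · rintro ⟨⟨z, t⟩, ⟨hz, ht⟩, rfl⟩
      exact ⟨t, ht, by simpa using hz⟩
  rw [h]
  refine (hC.prod isCompact_Icc).image ?_
  exact continuous_fst.add (continuous_snd.smul continuous_const)

theorem K_eq_image : K = (WithLp.toLp 2 : P20 → E20) '' KP := by
  ext x
  constructor
  · intro hx
    exact ⟨WithLp.ofLp x, hx, rfl⟩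
  · rintro ⟨y, hy, rfl⟩
    exact hy

theorem isCompact_K : IsCompact K := by
  rw [K_eq_image]
  exact isCompact_KP.image (PiLp.continuous_toLp 2 _)

theorem convex_K : Convex ℝ K := by
  intro x hx y hy a b ha hb hab
  obtain ⟨hx0, hx1, hx2⟩ := hx
  obtain ⟨hy0, hy1, hy2⟩ := hy
  refine ⟨fun i => ?_, ?_, ?_⟩
  · have : WithLp.ofLp (a • x + b • y) i = a * WithLp.ofLp x i + b * WithLp.ofLp y i := by simp
    rw [this]
    exact add_nonneg (mul_nonneg ha (hx0 i)) (mul_nonneg hb (hy0 i))
  · have : s1 (WithLp.ofLp (a • x + b • y)) = a * s1 (WithLp.ofLp x) + b * s1 (WithLp.ofLp y) := by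
      unfold s1
      rw [Finset.mul_sum, Finset.mul_sum, ← Finset.sum_add_distrib]
      exact Finset.sum_congr rfl (fun i _ => by simp)
    rw [this]
    nlinarith
  · have : s2 (WithLp.ofLp (a • x + b • y)) = a * s2 (WithLp.ofLp x) + b * s2 (WithLp.ofLp y) := by
      unfold s2
      rw [Finset.mul_sum, Finset.mul_sum, ← Finset.sum_add_distrib]
      exact Finset.sum_congr rfl (fun i _ => by simp)
    rw [this]
    nlinarith

theorem interior_K_nonempty : (interior K).Nonempty := by
  let U : Set E20 := {x : E20 | (∀ i, 0 < WithLp.ofLp x i) ∧ s1 (WithLp.ofLp x) < 1 ∧ s2 (WithLp.ofLp x) < 1}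
  have hUopen : IsOpen U := by
    have h : U = (⋂ i : Fin 20, {x : E20 | 0 < WithLp.ofLp x i}) ∩
        ({x : E20 | s1 (WithLp.ofLp x) < 1} ∩ {x : E20 | s2 (WithLp.ofLp x) < 1}) := by
      ext x; simp [U]
    rw [h]
    have hc : Continuous (WithLp.ofLp : E20 → P20) := PiLp.continuous_ofLp 2 _
    refine IsOpen.inter (isOpen_iInter_of_finite (fun i => ?_)) (IsOpen.inter ?_ ?_)
    · exact isOpen_lt continuous_const ((continuous_apply i).comp hc)
    · exact isOpen_lt (continuous_s1.comp hc) continuous_const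
    · exact isOpen_lt (continuous_s2.comp hc) continuous_const
  have hUsub : U ⊆ K := by
    intro x hx
    exact ⟨fun i => (hx.1 i).le, hx.2.1.le, hx.2.2.le⟩
  let p : E20 := WithLp.toLp 2 (fun _ : Fin 20 => (1 / 40 : ℝ))
  have hsum : ∀ A : Finset (Fin 20), ∑ i ∈ A, (1 / 40 : ℝ) < 1 := by
    intro A
    calc ∑ i ∈ A, (1 / 40 : ℝ) ≤ ∑ i ∈ (Finset.univ : Finset (Fin 20)), (1 / 40 : ℝ) :=
          Finset.sum_le_sum_of_subset_of_nonneg (Finset.subset_univ A) (fun _ _ _ => by norm_num)
      _ = 20 * (1 / 40 : ℝ) := by simp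
      _ < 1 := by norm_num
  have hp : p ∈ U := by
    refine ⟨fun i => ?_, ?_, ?_⟩
    · show (0 : ℝ) < 1 / 40
      norm_num
    · show ∑ i ∈ B1, (1 / 40 : ℝ) < 1
      exact hsum B1
    · show ∑ i ∈ B2, (1 / 40 : ℝ) < 1
      exact hsum B2
  exact ⟨p, interior_maximal hUsub hUopen hp⟩

end Crest.Agent.Helper73.S0355
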